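import Vale.Agent.P254.H876.Facts

/-!
P254, block G4 (helper320): expansions at zero of the sharp profile.

With `x = h`, `a = al x = 1/x - 1`:
`HH a = 2 - 10/a + 104/a² - θ/a³`, `0 ≤ θ ≤ 1436`,
`sharpW.w1 x = 1 - 5 x + 47 x² + O(x³)`, `sharp.p x ^ 3 = 4 (1 - 6 x + 42 x²) + O(x³)`.
-/

namespace Vale.Agent.P254.H320

open Real Set Filter Topology MeasureTheory
open Vale.Agent.P254.H876

/-! ### two-sided third order bounds for `HH` at infinity -/

/-- polynomial inequality behind the upper barrier -/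
theorem polyU {a : ℝ} (ha : 0 < a) :
    0 < 1124864 - 324480 * a + 117728 * a ^ 2 + 3992 * a ^ 3 - 864 * a ^ 4 + 1436 * a ^ 5 := by
  have h1 : 0 < 1124864 - 324480 * a + 117728 * a ^ 2 := by nlinarith [sq_nonneg (a - 1)]
  have h2 : 0 < a ^ 3 * (3992 - 864 * a + 1436 * a ^ 2) := by
    have : 0 < 3992 - 864 * a + 1436 * a ^ 2 := by nlinarith [sq_nonneg (a - 1)]
    positivity
  nlinarith

theorem HH_upper : ∀ a, 0 < a → 0 ≤ 2 - 10 / a + 104 / a ^ 2 - HH a := by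
  have hd : ∀ a, 0 < a → HasDerivAt (fun a => 2 - 10 / a + 104 / a ^ 2 - HH a)
      (10 / a ^ 2 - 208 / a ^ 3 - XX a (HH a) / (a * (a + 1))) a := by
    intro a ha
    have h1 : HasDerivAt (fun a : ℝ => 10 / a) (-10 / a ^ 2) a := by
      have h := (hasDerivAt_inv ha.ne').const_mul (10 : ℝ)
      simp only [← div_eq_mul_inv] at h
      refine h.congr_deriv ?_
      field_simp
    have h2 : HasDerivAt (fun a : ℝ => 104 / a ^ 2) (-208 / a ^ 3) a := by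
      have h := ((hasDerivAt_pow 2 a).inv (by positivity)).const_mul (104 : ℝ)
      have e : (fun a : ℝ => 104 / a ^ 2) = fun y => 104 * ((fun x : ℝ => x ^ 2)⁻¹) y := by
        funext y
        simp [div_eq_mul_inv]
      rw [e]
      refine h.congr_deriv ?_
      simp only [Nat.cast_ofNat, Nat.add_one_sub_one, pow_one]
      field_simp
      ring
    have h := ((h1.const_sub 2).add h2).sub (hasDerivAt_HH ha)
    refine h.congr_deriv ?_
    ring
  refine barrier (κ := 1 / 2) (by norm_num) hd ?_ ?_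
  · intro a ha hP
    have h0 := HH_pos a ha
    obtain ⟨H, hH⟩ : ∃ H, H = HH a := ⟨_, rfl⟩
    rw [← hH] at hP h0 ⊢
    obtain ⟨B, hB⟩ : ∃ B, B = 2 - 10 / a + 104 / a ^ 2 := ⟨_, rfl⟩
    rw [← hB] at hP ⊢
    have hBa : B * a ^ 2 = 2 * a ^ 2 - 10 * a + 104 := by
      rw [hB]; field_simp
    have hB0 : 0 < B := by
      have : 0 < B * a ^ 2 := by rw [hBa]; nlinarith [sq_nonneg (a - 1)]
      exact (pos_iff_pos_of_mul_pos this).2 (by positivity)
    -- `f(B) ≥ 2 a (a+1) (1 + B')`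
    have hfB : 2 * (a * (a + 1)) * (1 + (10 / a ^ 2 - 208 / a ^ 3)) ≤
        B * (a + B) * (a + B + 2) := by
      have e1 : 2 * (a * (a + 1)) * (1 + (10 / a ^ 2 - 208 / a ^ 3)) * a ^ 6 =
          2 * (a * (a + 1)) * (a ^ 6 + 10 * a ^ 4 - 208 * a ^ 3) := by
        field_simp
        ring
      have e2 : B * (a + B) * (a + B + 2) * a ^ 6 =
          (B * a ^ 2) * (a ^ 3 + B * a ^ 2) * (a ^ 3 + B * a ^ 2 + 2 * a ^ 2) := by ring
      have h6 : (0 : ℝ) < a ^ 6 := by positivity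
      refine le_of_mul_le_mul_right ?_ h6
      rw [e1, e2, hBa]
      have := polyU ha
      nlinarith
    -- monotonicity in `H`
    have hHB : 0 < H - B := by linarith
    have hf : B * (a + B) * (a + B + 2) + (H - B) * (a * (a + 1)) ≤
        H * (a + H) * (a + H + 2) := by
      have e : H * (a + H) * (a + H + 2) - (B * (a + B) * (a + B + 2) + (H - B) * (a * (a + 1))) =
          (H - B) * (H ^ 2 + H * B + B ^ 2 + (2 * a + 2) * (H + B) + a) := by ring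
      have : 0 ≤ (H - B) * (H ^ 2 + H * B + B ^ 2 + (2 * a + 2) * (H + B) + a) := by positivity
      linarith
    have hA : 0 < a * (a + 1) := by positivity
    have h3 : (10 / a ^ 2 - 208 / a ^ 3) + 1 / 2 * (H - B) ≤ XX a H / (a * (a + 1)) := by
      rw [le_div_iff₀ hA]
      unfold XX
      nlinarith
    linarith
  · refine ⟨0, 12, ?_⟩
    filter_upwards [eventually_ge_atTop 1] with a ha
    have ha0 : 0 < a := by linarith
    have h2 := HH_lt_two a ha0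
    have h3 : 10 / a ≤ 10 := by
      rw [div_le_iff₀ ha0]; linarith
    have h4 : 0 ≤ 104 / a ^ 2 := by positivity
    rw [pow_zero]
    linarith

/-- polynomial inequality behind the lower barrier -/
theorem polyL {a : ℝ} (ha : 8 ≤ a) :
    0 < 2961169856 - 643373952 * a + 108458208 * a ^ 2 - 26582272 * a ^ 3 - 979408 * a ^ 4
      + 249888 * a ^ 5 - 24096 * a ^ 6 + 23840 * a ^ 7 := by
  obtain ⟨t, ht, rfl⟩ : ∃ t, 0 ≤ t ∧ a = 8 + t := ⟨a - 8, by linarith, by ring⟩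
  have e : 2961169856 - 643373952 * (8 + t) + 108458208 * (8 + t) ^ 2 - 26582272 * (8 + t) ^ 3
      - 979408 * (8 + t) ^ 4 + 249888 * (8 + t) ^ 5 - 24096 * (8 + t) ^ 6
      + 23840 * (8 + t) ^ 7 =
      39001536960 + 38109164160 * t + 15298330848 * t ^ 2 + 3272964352 * t ^ 3
        + 413096752 * t ^ 4 + 31134240 * t ^ 5 + 1310944 * t ^ 6 + 23840 * t ^ 7 := by ring
  rw [e]
  positivity

theorem HH_lower : ∀ a, 0 < a → 0 ≤ HH a - (2 - 10 / a + 104 / a ^ 2 - 1436 / a ^ 3) := by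
  have hd : ∀ a, 0 < a → HasDerivAt (fun a => HH a - (2 - 10 / a + 104 / a ^ 2 - 1436 / a ^ 3))
      (XX a (HH a) / (a * (a + 1)) - (10 / a ^ 2 - 208 / a ^ 3 + 4308 / a ^ 4)) a := by
    intro a ha
    have h1 : HasDerivAt (fun a : ℝ => 10 / a) (-10 / a ^ 2) a := by
      have h := (hasDerivAt_inv ha.ne').const_mul (10 : ℝ)
      simp only [← div_eq_mul_inv] at h
      refine h.congr_deriv ?_
      field_simp
    have h2 : HasDerivAt (fun a : ℝ => 104 / a ^ 2) (-208 / a ^ 3) a := by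
      have h := ((hasDerivAt_pow 2 a).inv (by positivity)).const_mul (104 : ℝ)
      have e : (fun a : ℝ => 104 / a ^ 2) = fun y => 104 * ((fun x : ℝ => x ^ 2)⁻¹) y := by
        funext y
        simp [div_eq_mul_inv]
      rw [e]
      refine h.congr_deriv ?_
      simp only [Nat.cast_ofNat, Nat.add_one_sub_one, pow_one]
      field_simp
      ring
    have h3 : HasDerivAt (fun a : ℝ => 1436 / a ^ 3) (-4308 / a ^ 4) a := by
      have h := ((hasDerivAt_pow 3 a).inv (by positivity)).const_mul (1436 : ℝ)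
      have e : (fun a : ℝ => 1436 / a ^ 3) = fun y => 1436 * ((fun x : ℝ => x ^ 3)⁻¹) y := by
        funext y
        simp [div_eq_mul_inv]
      rw [e]
      refine h.congr_deriv ?_
      simp only [Nat.cast_ofNat, Nat.add_one_sub_one]
      field_simp
      ring
    have h := (hasDerivAt_HH ha).sub (((h1.const_sub 2).add h2).sub h3)
    refine h.congr_deriv ?_
    ring
  refine barrier (κ := 1 / 2) (by norm_num) hd ?_ ?_
  · intro a ha hP
    have h0 := HH_pos a ha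
    obtain ⟨H, hH⟩ : ∃ H, H = HH a := ⟨_, rfl⟩
    rw [← hH] at hP h0 ⊢
    obtain ⟨B, hB⟩ : ∃ B, B = 2 - 10 / a + 104 / a ^ 2 - 1436 / a ^ 3 := ⟨_, rfl⟩
    rw [← hB] at hP ⊢
    have hBa : B * a ^ 3 = 2 * a ^ 3 - 10 * a ^ 2 + 104 * a - 1436 := by
      rw [hB]; field_simp
    have hB0 : 0 < B := by linarith
    have ha8 : 8 ≤ a := by
      by_contra hlt
      push Not at hlt
      have : 0 < B * a ^ 3 := by positivity
      rw [hBa] at this
      nlinarith [sq_nonneg (a - 8), sq_nonneg a, mul_pos ha ha]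
    -- `f(B) ≤ 2 a (a+1) (1 + B')`
    have hfB : B * (a + B) * (a + B + 2) ≤
        2 * (a * (a + 1)) * (1 + (10 / a ^ 2 - 208 / a ^ 3 + 4308 / a ^ 4)) := by
      have e1 : 2 * (a * (a + 1)) * (1 + (10 / a ^ 2 - 208 / a ^ 3 + 4308 / a ^ 4)) * a ^ 9 =
          2 * (a * (a + 1)) * (a ^ 9 + 10 * a ^ 7 - 208 * a ^ 6 + 4308 * a ^ 5) := by
        field_simp
        ring
      have e2 : B * (a + B) * (a + B + 2) * a ^ 9 =
          (B * a ^ 3) * (a ^ 4 + B * a ^ 3) * (a ^ 4 + B * a ^ 3 + 2 * a ^ 3) := by ring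
      have h6 : (0 : ℝ) < a ^ 9 := by positivity
      refine le_of_mul_le_mul_right ?_ h6
      rw [e1, e2, hBa]
      have := polyL ha8
      nlinarith
    have hHB : 0 < B - H := by linarith
    have hf : H * (a + H) * (a + H + 2) + (B - H) * (a * (a + 1)) ≤
        B * (a + B) * (a + B + 2) := by
      have e : B * (a + B) * (a + B + 2) - (H * (a + H) * (a + H + 2) + (B - H) * (a * (a + 1))) =
          (B - H) * (H ^ 2 + H * B + B ^ 2 + (2 * a + 2) * (H + B) + a) := by ring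
      have : 0 ≤ (B - H) * (H ^ 2 + H * B + B ^ 2 + (2 * a + 2) * (H + B) + a) := by positivity
      linarith
    have hA : 0 < a * (a + 1) := by positivity
    have h3 : XX a H / (a * (a + 1)) ≤
        (10 / a ^ 2 - 208 / a ^ 3 + 4308 / a ^ 4) + 1 / 2 * (H - B) := by
      rw [div_le_iff₀ hA]
      unfold XX
      nlinarith
    linarith
  · refine ⟨0, 106, ?_⟩
    filter_upwards [eventually_ge_atTop 1] with a ha
    have ha0 : 0 < a := by linarith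
    have h2 := HH_pos a ha0
    have h3 : 0 ≤ 10 / a := by positivity
    have h4 : 104 / a ^ 2 ≤ 104 := by
      rw [div_le_iff₀ (by positivity)]; nlinarith
    have h5 : 0 ≤ 1436 / a ^ 3 := by positivity
    rw [pow_zero]
    linarith

/-- third order expansion of `HH` at infinity, exact remainder -/
theorem HH_expand {a : ℝ} (ha : 0 < a) : ∃ θ : ℝ, 0 ≤ θ ∧ θ ≤ 1436 ∧
    HH a = 2 - 10 / a + 104 / a ^ 2 - θ / a ^ 3 := by
  refine ⟨(2 - 10 / a + 104 / a ^ 2 - HH a) * a ^ 3, ?_, ?_, ?_⟩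
  · exact mul_nonneg (HH_upper a ha) (by positivity)
  · have h := HH_lower a ha
    have h3 : (0 : ℝ) < a ^ 3 := by positivity
    have h4 : (2 - 10 / a + 104 / a ^ 2 - HH a) ≤ 1436 / a ^ 3 := by linarith
    rwa [le_div_iff₀ h3] at h4
  · have h3 : (a : ℝ) ^ 3 ≠ 0 := by positivity
    field_simp
    ring

/-! ### expansions in `x` -/

theorem inv_al {x : ℝ} (hx : x ∈ Ioo (0 : ℝ) 1) : 1 / al x = x / (1 - x) := by
  have h0 := hx.1.ne'
  have h1 : (1 - x) ≠ 0 := by linarith [hx.2]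
  have h2 : al x = (1 - x) / x := by
    unfold al
    field_simp
  rw [h2, one_div_div]

/-- expansion in terms of `e = x/(1-x) = 1/a` -/
theorem HH_e {x : ℝ} (hx : x ∈ Ioo (0 : ℝ) 1) : ∃ θ : ℝ, 0 ≤ θ ∧ θ ≤ 1436 ∧
    HH (al x) = 2 - 10 * (x / (1 - x)) + 104 * (x / (1 - x)) ^ 2 - θ * (x / (1 - x)) ^ 3 := by
  obtain ⟨θ, h0, h1, h⟩ := HH_expand (al_pos hx)
  refine ⟨θ, h0, h1, ?_⟩
  rw [h, ← inv_al hx]
  ring

/-- `x / (1 - x) = x + x² + x³/(1-x)` -/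
theorem e_eq {x : ℝ} (hx : x ∈ Ioo (0 : ℝ) 1) :
    x / (1 - x) = x + x ^ 2 + x ^ 3 / (1 - x) := by
  have h1 : (1 - x) ≠ 0 := by linarith [hx.2]
  field_simp
  ring

/-- `w' = 1 - 5 x + 47 x² + O(x³)` on `(0, 1/2]` -/
theorem w1_expand_half {x : ℝ} (hx : 0 < x) (hx2 : x ≤ 1 / 2) :
    |sharpW.w1 x - (1 - 5 * x + 47 * x ^ 2)| ≤ 6000 * x ^ 3 := by
  have hx1 : x ∈ Ioo (0 : ℝ) 1 := ⟨hx, by linarith⟩
  obtain ⟨θ, h0, h1, h⟩ := HH_e hx1
  have e1 : sharpW.w1 x = HH (al x) / 2 := rfl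
  obtain ⟨q, hq⟩ : ∃ q, q = 1 / (1 - x) := ⟨_, rfl⟩
  have hq1 : 1 ≤ q := by
    rw [hq, le_div_iff₀ (by linarith)]; linarith
  have hq2 : q ≤ 2 := by
    rw [hq, div_le_iff₀ (by linarith)]; linarith
  have hqx : q * (1 - x) = 1 := by
    rw [hq]; field_simp [show (1 - x) ≠ 0 by linarith]
  have he : x / (1 - x) = x * q := by rw [hq]; ring
  have hxq : x * q = q - 1 := by linarith
  rw [he] at h
  have key : sharpW.w1 x - (1 - 5 * x + 47 * x ^ 2) =
      x ^ 3 * (-5 * q + 52 * (2 - x) * q ^ 2 - θ / 2 * q ^ 3) := by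
    rw [e1, h]
    have h2 : x * q = x + x ^ 2 + x ^ 3 * q := by
      have : x * q - (x + x ^ 2 + x ^ 3 * q) = x * (1 + x) * (q * (1 - x) - 1) := by ring
      rw [hqx] at this
      linarith
    have h3 : (x * q) ^ 2 = x ^ 2 + x ^ 3 * (2 - x) * q ^ 2 := by
      have : (x * q) ^ 2 - (x ^ 2 + x ^ 3 * (2 - x) * q ^ 2) =
        x ^ 2 * ((q * (1 - x)) ^ 2 - 1) := by ring
      rw [hqx] at this
      linarith
    have h4 : (x * q) ^ 3 = x ^ 3 * q ^ 3 := by ring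
    rw [h4, h3, h2]
    ring
  have hθ : 0 ≤ θ / 2 * q ^ 3 := by positivity
  have hθ2 : θ / 2 * q ^ 3 ≤ 1436 / 2 * 2 ^ 3 := by gcongr
  have hm : 52 * (2 - x) * q ^ 2 ≤ 52 * 2 * 2 ^ 2 := by
    have : 0 ≤ 2 - x := by linarith
    gcongr
    linarith
  have hm0 : 0 ≤ 52 * (2 - x) * q ^ 2 := by
    have : 0 ≤ 2 - x := by linarith
    positivity
  rw [key, abs_mul, abs_of_pos (by positivity : 0 < x ^ 3), mul_comm]
  refine mul_le_mul_of_nonneg_right ?_ (by positivity)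
  rw [abs_le]
  constructor <;> linarith

/-- **`w' x = 1 - 5 x + 47 x² + O(x³)`** on `(0,1)` -/
theorem w1_expand {x : ℝ} (hx : x ∈ Ioo (0 : ℝ) 1) :
    |sharpW.w1 x - (1 - 5 * x + 47 * x ^ 2)| ≤ 6000 * x ^ 3 := by
  rcases le_or_gt x (1 / 2) with h | h
  · exact w1_expand_half hx.1 h
  · have h1 := sharpW.w1_pos x hx
    have h2 : sharpW.w1 x ≤ 1 := sharpW.w1_le x hx
    have h3 : (1 / 2 : ℝ) ^ 3 ≤ x ^ 3 := by gcongr
    have h4 := hx.2
    have h5 : x ^ 2 ≤ 1 := by nlinarith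
    have h6 : 0 ≤ x ^ 2 := by positivity
    rw [abs_le]
    constructor <;> nlinarith

/-- first order: `|w' x - (1 - 5 x)| ≤ C x²` -/
theorem w1_first {x : ℝ} (hx : x ∈ Ioo (0 : ℝ) 1) :
    |sharpW.w1 x - (1 - 5 * x)| ≤ 6047 * x ^ 2 := by
  have h := w1_expand hx
  have h1 : x ^ 3 ≤ x ^ 2 := by
    have := hx.1
    have := hx.2
    nlinarith [sq_nonneg x]
  have h2 : 0 ≤ x ^ 2 := by positivity
  rw [abs_le] at h ⊢
  constructor <;> linarith [h.1, h.2]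

/-! ### the squared skewness `k = p³` -/

theorem kk_eq' {a : ℝ} (ha : 0 < a) :
    kk a = 4 / ((1 + HH a / a) * (1 + (HH a + 2) / a)) := by
  have h0 := HH_pos a ha
  unfold kk
  field_simp
  ring

theorem kk_le_four {a : ℝ} (ha : 0 < a) : kk a ≤ 4 := by
  have h0 := HH_pos a ha
  unfold kk
  rw [div_le_iff₀ (by positivity)]
  nlinarith

/-- algebra: the product `M = (1 + H e) (1 + (H+2) e)` -/
theorem k_alg1 {e θ H : ℝ} (he0 : 0 < e) (he1 : e ≤ 1) (h0 : 0 ≤ θ) (h1 : θ ≤ 1436)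
    (hp : 0 < H) (hlt : 0 < 2 - H) (hU2 : 2 - H ≤ 10 * e)
    (h : H = 2 - 10 * e + 104 * e ^ 2 - θ * e ^ 3) :
    ∃ R : ℝ, |R| ≤ 3200 ∧
      (1 + H * e) * (1 + (H + 2) * e) = 1 + 6 * e - 12 * e ^ 2 + e ^ 3 * R := by
  have hz : |(-10 + 104 * e - θ * e ^ 2)| ≤ 10 := by
    have h7 : e * (-10 + 104 * e - θ * e ^ 2) = H - 2 := by rw [h]; ring
    rw [abs_le]
    constructor
    · by_contra hcon
      push Not at hcon
      have := mul_lt_mul_of_pos_left hcon he0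
      linarith
    · by_contra hcon
      push Not at hcon
      have := mul_lt_mul_of_pos_left hcon he0
      linarith
  refine ⟨208 - 2 * θ * e + (-10 + 104 * e - θ * e ^ 2) * (H + 4), ?_, ?_⟩
  · have h9 : |(-10 + 104 * e - θ * e ^ 2) * (H + 4)| ≤ 10 * 6 := by
      rw [abs_mul]
      refine mul_le_mul hz ?_ (abs_nonneg _) (by norm_num)
      rw [abs_of_pos (by linarith)]
      linarith
    have h10 : 0 ≤ 2 * θ * e := by positivity
    have h11 : 2 * θ * e ≤ 2 * 1436 * 1 := by gcongr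
    rw [abs_le] at h9 ⊢
    constructor <;> linarith [h9.1, h9.2]
  · have h7 : H - 2 = e * (-10 + 104 * e - θ * e ^ 2) := by rw [h]; ring
    have h8 : (1 + H * e) * (1 + (H + 2) * e) =
        1 + 6 * e + 2 * e * (H - 2) + 8 * e ^ 2 + e ^ 2 * (H - 2) * (H + 4) := by ring
    rw [h8, h7]
    ring

/-- algebra: the inverse of `M` -/
theorem k_alg2 {e R M : ℝ} (he0 : 0 < e) (he1 : e ≤ 1) (hRb : |R| ≤ 3200) (hM1 : 1 ≤ M)
    (hMR : M = 1 + 6 * e - 12 * e ^ 2 + e ^ 3 * R) :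
    |(4 : ℝ) / M - 4 * (1 - 6 * e + 48 * e ^ 2)| ≤ e ^ 3 * 800000 := by
  have he2 : e ^ 2 ≤ 1 := by nlinarith
  have he3 : 0 < e ^ 2 := by positivity
  have hM0 : M ≠ 0 := by linarith
  have hkey : (4 : ℝ) / M - 4 * (1 - 6 * e + 48 * e ^ 2) =
      e ^ 3 * (-4 * (360 - 576 * e + R * (1 - 6 * e + 48 * e ^ 2)) / M) := by
    have e2 : (4 : ℝ) / M - 4 * (1 - 6 * e + 48 * e ^ 2) =
      4 * (1 - (1 - 6 * e + 48 * e ^ 2) * M) / M := by
      field_simp
    rw [e2]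
    have e3 : 1 - (1 - 6 * e + 48 * e ^ 2) * M =
      - e ^ 3 * (360 - 576 * e + R * (1 - 6 * e + 48 * e ^ 2)) := by
      rw [hMR]; ring
    rw [e3]
    ring
  rw [hkey, abs_mul, abs_of_pos (by positivity : 0 < e ^ 3)]
  refine mul_le_mul_of_nonneg_left ?_ (by positivity)
  rw [abs_div, abs_of_pos (by linarith : 0 < M), div_le_iff₀ (by linarith)]
  have h12 : |R * (1 - 6 * e + 48 * e ^ 2)| ≤ 3200 * 55 := by
    rw [abs_mul]
    refine mul_le_mul hRb ?_ (abs_nonneg _) (by norm_num)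
    rw [abs_le]
    constructor <;> linarith
  have h13 : |(-4 : ℝ) * (360 - 576 * e + R * (1 - 6 * e + 48 * e ^ 2))| ≤ 800000 := by
    rw [abs_le] at h12 ⊢
    constructor <;> linarith [h12.1, h12.2]
  linarith

/-- `k` in terms of `e = x/(1-x)` on `(0, 1/2]` -/
theorem k_e {x : ℝ} (hx : 0 < x) (hx2 : x ≤ 1 / 2) :
    |sharp.p x ^ 3 - 4 * (1 - 6 * (x / (1 - x)) + 48 * (x / (1 - x)) ^ 2)|
      ≤ (x / (1 - x)) ^ 3 * 800000 := by
  have hx1 : x ∈ Ioo (0 : ℝ) 1 := ⟨hx, by linarith⟩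
  obtain ⟨θ, h0, h1, h⟩ := HH_e hx1
  have ha := al_pos hx1
  have hU := U_le _ ha
  have hp := HH_pos _ ha
  have hlt := HH_lt_two _ ha
  have hal := inv_al hx1
  obtain ⟨e, hee⟩ : ∃ e, e = x / (1 - x) := ⟨_, rfl⟩
  have he0 : 0 < e := by rw [hee]; exact div_pos hx (by linarith)
  have he1 : e ≤ 1 := by
    rw [hee, div_le_iff₀ (by linarith)]
    linarith
  rw [← hee] at h hal ⊢
  rw [sharp_cube hx1, kk_eq' ha]
  obtain ⟨a, haa⟩ : ∃ a, a = al x := ⟨_, rfl⟩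
  rw [← haa] at h hp hlt hU ha hal ⊢
  obtain ⟨H, hH⟩ : ∃ H, H = HH a := ⟨_, rfl⟩
  rw [← hH] at h hp hlt hU ⊢
  have hae : a * e = 1 := by rw [← hal]; field_simp
  have hU2 : 2 - H ≤ 10 * e := by
    have h3 : (10 - a * (2 - H)) * e ≥ 0 := mul_nonneg hU he0.le
    have e1 : (10 - a * (2 - H)) * e = 10 * e - (a * e) * (2 - H) := by ring
    rw [e1, hae] at h3
    linarith
  have hd1 : H / a = H * e := by rw [← hal]; ring
  have hd2 : (H + 2) / a = (H + 2) * e := by rw [← hal]; ring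
  rw [hd1, hd2]
  obtain ⟨R, hRb, hMR⟩ := k_alg1 he0 he1 h0 h1 hp hlt hU2 h
  refine k_alg2 he0 he1 hRb ?_ hMR
  have h5 : 0 ≤ H * e := by positivity
  have h6 : 0 ≤ (H + 2) * e := by positivity
  have h7 : 0 ≤ (H * e) * ((H + 2) * e) := mul_nonneg h5 h6
  linarith

/-- pass from `e` to `x` -/
theorem e_to_x {x : ℝ} (hx : 0 < x) (hx2 : x ≤ 1 / 2) :
    (x / (1 - x)) ^ 3 ≤ x ^ 3 * 8 ∧
      |4 * (1 - 6 * (x / (1 - x)) + 48 * (x / (1 - x)) ^ 2) - 4 * (1 - 6 * x + 42 * x ^ 2)|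
        ≤ x ^ 3 * 2000 := by
  obtain ⟨q, hq⟩ : ∃ q, q = 1 / (1 - x) := ⟨_, rfl⟩
  have hq1 : 1 ≤ q := by
    rw [hq, le_div_iff₀ (by linarith)]; linarith
  have hq2 : q ≤ 2 := by
    rw [hq, div_le_iff₀ (by linarith)]; linarith
  have hqx : q * (1 - x) = 1 := by
    rw [hq]; field_simp [show (1 - x) ≠ 0 by linarith]
  have he : x / (1 - x) = x * q := by rw [hq]; ring
  rw [he]
  have h2 : x * q = x + x ^ 2 + x ^ 3 * q := by
    have h : x * q - (x + x ^ 2 + x ^ 3 * q) = x * (1 + x) * (q * (1 - x) - 1) := by ring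
    rw [hqx] at h
    linarith
  have h3 : (x * q) ^ 2 = x ^ 2 + x ^ 3 * (2 - x) * q ^ 2 := by
    have h : (x * q) ^ 2 - (x ^ 2 + x ^ 3 * (2 - x) * q ^ 2) =
      x ^ 2 * ((q * (1 - x)) ^ 2 - 1) := by ring
    rw [hqx] at h
    linarith
  have hx3 : 0 < x ^ 3 := by positivity
  constructor
  · rw [mul_pow]
    refine mul_le_mul_of_nonneg_left ?_ hx3.le
    calc q ^ 3 ≤ 2 ^ 3 := by gcongr
      _ = 8 := by norm_num
  · have e4 : 4 * (1 - 6 * (x * q) + 48 * (x * q) ^ 2) - 4 * (1 - 6 * x + 42 * x ^ 2) =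
      x ^ 3 * (4 * (-6 * q + 48 * (2 - x) * q ^ 2)) := by
      rw [h3]
      nth_rewrite 1 [h2]
      ring
    rw [e4, abs_mul, abs_of_pos hx3]
    refine mul_le_mul_of_nonneg_left ?_ hx3.le
    have hm : (2 - x) * q ^ 2 ≤ 2 * 2 ^ 2 := by
      have : 0 ≤ 2 - x := by linarith
      gcongr
      linarith
    have hm0 : 0 ≤ (2 - x) * q ^ 2 := by
      have : 0 ≤ 2 - x := by linarith
      positivity
    rw [abs_le]
    constructor <;> linarith

/-- `k = 4 (1 - 6 x + 42 x²) + O(x³)` on `(0, 1/2]` -/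
theorem k_expand_half {x : ℝ} (hx : 0 < x) (hx2 : x ≤ 1 / 2) :
    |sharp.p x ^ 3 - 4 * (1 - 6 * x + 42 * x ^ 2)| ≤ 10000000 * x ^ 3 := by
  have h1 := k_e hx hx2
  obtain ⟨h2, h3⟩ := e_to_x hx hx2
  have h4 := abs_sub_le (sharp.p x ^ 3)
    (4 * (1 - 6 * (x / (1 - x)) + 48 * (x / (1 - x)) ^ 2)) (4 * (1 - 6 * x + 42 * x ^ 2))
  have hx3 : 0 < x ^ 3 := by positivity
  linarith

/-- **`p x ^ 3 = 4 (1 - 6 x + 42 x²) + O(x³)`** on `(0,1)` -/
theorem k_expand {x : ℝ} (hx : x ∈ Ioo (0 : ℝ) 1) :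
    |sharp.p x ^ 3 - 4 * (1 - 6 * x + 42 * x ^ 2)| ≤ 10000000 * x ^ 3 := by
  rcases le_or_gt x (1 / 2) with h | h
  · exact k_expand_half hx.1 h
  · have ha := al_pos hx
    rw [sharp_cube hx]
    have h1 := kk_pos ha
    have h2 := kk_le_four ha
    have h3 : (1 / 2 : ℝ) ^ 3 ≤ x ^ 3 := by gcongr
    have h4 := hx.2
    have h5 : x ^ 2 ≤ 1 := by nlinarith
    have h6 : 0 ≤ x ^ 2 := by positivity
    rw [abs_le]
    constructor <;> nlinarith

/-- first order: `|p x ^ 3 - 4 (1 - 6 x)| ≤ C x²` -/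
theorem k_first {x : ℝ} (hx : x ∈ Ioo (0 : ℝ) 1) :
    |sharp.p x ^ 3 - 4 * (1 - 6 * x)| ≤ 10000168 * x ^ 2 := by
  have h := k_expand hx
  have h1 : x ^ 3 ≤ x ^ 2 := by
    have := hx.1
    have := hx.2
    nlinarith [sq_nonneg x]
  have h2 : 0 ≤ x ^ 2 := by positivity
  rw [abs_le] at h ⊢
  constructor <;> linarith [h.1, h.2]

/-! ### derivatives at zero -/

/-- `J a = 5 + O(1/a)` -/
theorem JJ_first {a : ℝ} (ha : 1 ≤ a) : |JJ a - 5| ≤ 2000 / a := by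
  have ha0 : 0 < a := by linarith
  obtain ⟨θ, h0, h1, h⟩ := HH_expand ha0
  have hU := U_le a ha0
  have hp := HH_pos a ha0
  have hlt := HH_lt_two a ha0
  rw [le_div_iff₀ ha0]
  obtain ⟨d, hd⟩ : ∃ d, d = 2 - HH a := ⟨_, rfl⟩
  have hH : HH a = 2 - d := by linarith
  have hd0 : 0 < d := by linarith
  have hd2 : a * d ≤ 10 := by rw [hd]; linarith
  have had : a * d = 10 - 104 / a + θ / a ^ 2 := by
    rw [hd, h]; field_simp; ring
  have h104 : 0 ≤ 104 / a ∧ 104 / a * a = 104 := ⟨by positivity, by field_simp⟩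
  have hθ : 0 ≤ θ / a ^ 2 ∧ θ / a ^ 2 * a ≤ 1436 := by
    refine ⟨by positivity, ?_⟩
    have e : θ / a ^ 2 * a = θ / a := by field_simp
    rw [e, div_le_iff₀ ha0]
    nlinarith
  have e : JJ a - 5 = (a * d - 10) + 5 * d - d ^ 2 := by
    unfold JJ; rw [hH]; ring
  have hd3 : d ≤ 10 := by nlinarith
  have h6 : d ^ 2 * a ≤ 100 := by
    have : d ^ 2 * a = d * (a * d) := by ring
    rw [this]
    have h7 : d * (a * d) ≤ 10 * 10 := mul_le_mul hd3 hd2 (by positivity) (by norm_num)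
    linarith
  have h7 : 0 ≤ d ^ 2 * a := by positivity
  have h8 : (a * d - 10) * a = -104 + θ / a ^ 2 * a := by
    rw [had]; linear_combination -(h104.2)
  have h9 : (JJ a - 5) * a = -104 + θ / a ^ 2 * a + 5 * (a * d) - d ^ 2 * a := by
    rw [e, ← h8]; ring
  have h10 : 0 ≤ θ / a ^ 2 * a := mul_nonneg hθ.1 ha0.le
  have h11 : 0 ≤ a * d := by positivity
  rw [← abs_of_pos ha0, ← abs_mul, abs_of_pos ha0, h9, abs_le]
  constructor <;> linarith [hθ.2]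

/-- `w'' x = - 5 + O(x)` on `(0, 1/2]` -/
theorem w2_first {x : ℝ} (hx : 0 < x) (hx2 : x ≤ 1 / 2) :
    |sharpW.w2 x + 5| ≤ 6000000 * x := by
  have hx1 : x ∈ Ioo (0 : ℝ) 1 := ⟨hx, by linarith⟩
  obtain ⟨θ, h0, h1, h⟩ := HH_e hx1
  have ha := al_pos hx1
  have hU := U_le _ ha
  have hp := HH_pos _ ha
  have hlt := HH_lt_two _ ha
  have hal := inv_al hx1
  obtain ⟨e, hee⟩ : ∃ e, e = x / (1 - x) := ⟨_, rfl⟩
  have he0 : 0 < e := by rw [hee]; exact div_pos hx (by linarith)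
  have he1 : e ≤ 1 := by
    rw [hee, div_le_iff₀ (by linarith)]
    linarith
  have hex : e ≤ 2 * x := by
    rw [hee, div_le_iff₀ (by linarith)]
    nlinarith
  rw [← hee] at h hal
  have e1 : sharpW.w2 x = -(ff (al x) * (1 + al x) ^ 2) := rfl
  rw [e1]
  obtain ⟨a, haa⟩ : ∃ a, a = al x := ⟨_, rfl⟩
  rw [← haa] at h hp hlt hU ha hal ⊢
  have hae : a * e = 1 := by rw [← hal]; field_simp
  have hff : ff a * (1 + a) ^ 2 = (1 + e) * (XX a (HH a)) / 2 := by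
    unfold ff
    rw [← hal]
    field_simp
    ring
  obtain ⟨H, hH⟩ : ∃ H, H = HH a := ⟨_, rfl⟩
  rw [← hH] at h hp hlt hU hff
  rw [hff]
  have hU2 : 2 - H ≤ 10 * e := by
    have h3 : (10 - a * (2 - H)) * e ≥ 0 := mul_nonneg hU he0.le
    have e1 : (10 - a * (2 - H)) * e = 10 * e - (a * e) * (2 - H) := by ring
    rw [e1, hae] at h3
    linarith
  obtain ⟨R, hRb, hMR⟩ := k_alg1 he0 he1 h0 h1 hp hlt hU2 h
  -- `XX = a² (H M / 2 - 1 - e)`
  have hXX : XX a H = a ^ 2 * (H * ((1 + H * e) * (1 + (H + 2) * e)) / 2 - 1 - e) := by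
    have e2 : a ^ 2 * (H * ((1 + H * e) * (1 + (H + 2) * e)) / 2 - 1 - e) =
      H * ((a + H * (a * e)) * (a + (H + 2) * (a * e))) / 2 - a ^ 2 - a * (a * e) := by ring
    rw [e2, hae]
    unfold XX
    ring
  obtain ⟨R2, hR2⟩ : ∃ R2, R2 = (R + 372 - θ / 2) + e * (-5 * R - 624 - 3 * θ)
      + e ^ 2 * (52 * R + 6 * θ) - e ^ 3 * (θ / 2 * R) := ⟨_, rfl⟩
  have hXX2 : XX a H = 10 + e * R2 := by
    rw [hXX, hMR]
    have e3 : H * (1 + 6 * e - 12 * e ^ 2 + e ^ 3 * R) / 2 - 1 - e = e ^ 2 * (10 + e * R2) := by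
      rw [hR2, h]; ring
    rw [e3]
    have e4 : a ^ 2 * (e ^ 2 * (10 + e * R2)) = (a * e) ^ 2 * (10 + e * R2) := by ring
    rw [e4, hae]
    ring
  have he2 : e ^ 2 ≤ 1 := by nlinarith
  have he3 : e ^ 3 ≤ 1 := by nlinarith [mul_nonneg he0.le (sq_nonneg e)]
  have hR2b : |R2| ≤ 2600000 := by
    have t1 : |R + 372 - θ / 2| ≤ 5000 := by
      rw [abs_le] at hRb ⊢
      constructor <;> linarith [hRb.1, hRb.2]
    have t2 : |e * (-5 * R - 624 - 3 * θ)| ≤ 1 * 25000 := by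
      rw [abs_mul, abs_of_pos he0]
      refine mul_le_mul he1 ?_ (abs_nonneg _) (by norm_num)
      rw [abs_le] at hRb ⊢
      constructor <;> linarith [hRb.1, hRb.2]
    have t3 : |e ^ 2 * (52 * R + 6 * θ)| ≤ 1 * 200000 := by
      rw [abs_mul, abs_of_pos (by positivity : 0 < e ^ 2)]
      refine mul_le_mul he2 ?_ (abs_nonneg _) (by norm_num)
      rw [abs_le] at hRb ⊢
      constructor <;> linarith [hRb.1, hRb.2]
    have t4 : |e ^ 3 * (θ / 2 * R)| ≤ 1 * (718 * 3200) := by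
      rw [abs_mul, abs_of_pos (by positivity : 0 < e ^ 3)]
      refine mul_le_mul he3 ?_ (abs_nonneg _) (by norm_num)
      rw [abs_mul, abs_of_nonneg (by positivity : 0 ≤ θ / 2)]
      exact mul_le_mul (by linarith) hRb (abs_nonneg _) (by norm_num)
    rw [hR2]
    rw [abs_le] at t1 t2 t3 t4 ⊢
    constructor <;> linarith [t1.1, t1.2, t2.1, t2.2, t3.1, t3.2, t4.1, t4.2]
  rw [hXX2]
  have e5 : -((1 + e) * (10 + e * R2) / 2) + 5 = -(e * (5 + (1 + e) * R2 / 2)) := by ring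
  rw [e5, abs_neg, abs_mul, abs_of_pos he0]
  have t5 : |5 + (1 + e) * R2 / 2| ≤ 3000000 := by
    have t6 : |(1 + e) * R2| ≤ 2 * 2600000 := by
      rw [abs_mul, abs_of_pos (by linarith)]
      exact mul_le_mul (by linarith) hR2b (abs_nonneg _) (by norm_num)
    rw [abs_le] at t6 ⊢
    constructor <;> linarith [t6.1, t6.2]
  calc e * |5 + (1 + e) * R2 / 2| ≤ (2 * x) * 3000000 :=
        mul_le_mul hex t5 (abs_nonneg _) (by linarith)
    _ = _ := by ring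

/-- `3 p' x = -(6 + O(x)) p x` (the logarithmic derivative of `k`) on `(0, 1/2]` -/
theorem p1_first {x : ℝ} (hx : 0 < x) (hx2 : x ≤ 1 / 2) :
    |3 * sharp.p1 x + 6 * sharp.p x| ≤ 16000 * x * sharp.p x := by
  have hx1 : x ∈ Ioo (0 : ℝ) 1 := ⟨hx, by linarith⟩
  have ha := al_pos hx1
  have hal := inv_al hx1
  have ha1 : 1 ≤ al x := by
    unfold al
    have : 2 ≤ 1 / x := by
      rw [le_div_iff₀ hx]; linarith
    linarith
  have hJ := JJ_first ha1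
  have e1 : sharp.p1 x = pa1 (al x) := rfl
  have e2 : sharp.p x = pp (al x) := rfl
  rw [e1, e2]
  have hpp := pp_pos ha
  obtain ⟨e, hee⟩ : ∃ e, e = x / (1 - x) := ⟨_, rfl⟩
  have he0 : 0 < e := by rw [hee]; exact div_pos hx (by linarith)
  have he1 : e ≤ 1 := by
    rw [hee, div_le_iff₀ (by linarith)]
    linarith
  have hex : e ≤ 2 * x := by
    rw [hee, div_le_iff₀ (by linarith)]
    nlinarith
  rw [← hee] at hal
  obtain ⟨a, haa⟩ : ∃ a, a = al x := ⟨_, rfl⟩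
  rw [← haa] at ha hal ha1 hJ hpp ⊢
  have hJ2 : |JJ a - 5| ≤ 2000 * e := by
    rw [← hal]
    calc |JJ a - 5| ≤ 2000 / a := hJ
      _ = _ := by ring
  have e3 : 3 * pa1 a + 6 * pp a = -((JJ a - 5) * (1 + e) + 6 * e) * pp a := by
    unfold pa1
    rw [← hal]
    field_simp
    ring
  rw [e3, abs_mul, abs_of_pos hpp, abs_neg]
  refine mul_le_mul_of_nonneg_right ?_ hpp.le
  have h4 : |(JJ a - 5) * (1 + e)| ≤ 2000 * e * 2 := by
    rw [abs_mul, abs_of_pos (by linarith : 0 < 1 + e)]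
    exact mul_le_mul hJ2 (by linarith) (by linarith) (by positivity)
  rw [abs_le] at h4 ⊢
  constructor <;> nlinarith [h4.1, h4.2]

/-! ### clocks -/

/-- an `O(x²)` bound is an `o(x)` bound -/
theorem small_of_sq {f : ℝ → ℝ} {C x0 : ℝ} (h0 : 0 < x0)
    (hf : ∀ x, 0 < x → x ≤ x0 → |f x| ≤ C * x ^ 2) {δ : ℝ} (hδ : 0 < δ) :
    ∃ x1 : ℝ, 0 < x1 ∧ x1 ≤ x0 ∧ ∀ x, 0 < x → x ≤ x1 → |f x| ≤ δ * x := by
  refine ⟨min x0 (δ / (|C| + 1)), lt_min h0 (by positivity), min_le_left _ _, ?_⟩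
  intro x hx hx1
  have h1 : x ≤ x0 := hx1.trans (min_le_left _ _)
  have h2 : x ≤ δ / (|C| + 1) := hx1.trans (min_le_right _ _)
  rw [le_div_iff₀ (by positivity)] at h2
  refine (hf x hx h1).trans ?_
  have h3 : C ≤ |C| + 1 := by linarith [le_abs_self C]
  calc C * x ^ 2 ≤ (|C| + 1) * x ^ 2 := mul_le_mul_of_nonneg_right h3 (by positivity)
    _ = (x * (|C| + 1)) * x := by ring
    _ ≤ δ * x := mul_le_mul_of_nonneg_right h2 hx.le

/-- from the expansion `r = 1 + r1 x + O(x²)` of the clock to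
`k r = 4 (1 - (6 - r1) x) + O(x²)` -/
theorem kr_of {r : ℝ → ℝ} {r1 C x0 : ℝ} (h1 : x0 < 1)
    (hr : ∀ x, 0 < x → x ≤ x0 → |r x - (1 + r1 * x)| ≤ C * x ^ 2) :
    ∀ x, 0 < x → x ≤ x0 → |sharp.p x ^ 3 * r x - 4 * (1 - (6 - r1) * x)| ≤
      (4 * |C| + 10000168 * (1 + |r1|) + 24 * |r1|) * x ^ 2 := by
  intro x hx hx0
  have hx1 : x ∈ Ioo (0 : ℝ) 1 := ⟨hx, lt_of_le_of_lt hx0 h1⟩
  have hk := k_first hx1
  have ha := al_pos hx1
  have hk4 : |sharp.p x ^ 3| ≤ 4 := by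
    rw [sharp_cube hx1, abs_of_pos (kk_pos ha)]
    exact kk_le_four ha
  have hr' := hr x hx hx0
  have hsq : 0 ≤ x ^ 2 := by positivity
  have e : sharp.p x ^ 3 * r x - 4 * (1 - (6 - r1) * x) =
      sharp.p x ^ 3 * (r x - (1 + r1 * x)) + (sharp.p x ^ 3 - 4 * (1 - 6 * x)) * (1 + r1 * x)
        + -(24 * r1 * x ^ 2) := by ring
  rw [e]
  have t1 : |sharp.p x ^ 3 * (r x - (1 + r1 * x))| ≤ 4 * (|C| * x ^ 2) := by
    rw [abs_mul]
    refine mul_le_mul hk4 (hr'.trans ?_) (abs_nonneg _) (by norm_num)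
    exact mul_le_mul_of_nonneg_right (le_abs_self C) hsq
  have t2 : |(sharp.p x ^ 3 - 4 * (1 - 6 * x)) * (1 + r1 * x)| ≤
      (10000168 * x ^ 2) * (1 + |r1|) := by
    rw [abs_mul]
    refine mul_le_mul hk ?_ (abs_nonneg _) (by positivity)
    refine (abs_add_le _ _).trans ?_
    rw [abs_one, abs_mul, abs_of_pos hx]
    have : |r1| * x ≤ |r1| * 1 := mul_le_mul_of_nonneg_left hx1.2.le (abs_nonneg _)
    linarith
  have t3 : |-(24 * r1 * x ^ 2)| = 24 * |r1| * x ^ 2 := by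
    rw [abs_neg, abs_mul, abs_mul, abs_of_nonneg hsq]
    norm_num
  calc _ ≤ |sharp.p x ^ 3 * (r x - (1 + r1 * x)) +
        (sharp.p x ^ 3 - 4 * (1 - 6 * x)) * (1 + r1 * x)| + |-(24 * r1 * x ^ 2)| := abs_add_le _ _
    _ ≤ |sharp.p x ^ 3 * (r x - (1 + r1 * x))| +
        |(sharp.p x ^ 3 - 4 * (1 - 6 * x)) * (1 + r1 * x)| + |-(24 * r1 * x ^ 2)| :=
        add_le_add_left (abs_add_le _ _) _
    _ ≤ 4 * (|C| * x ^ 2) + (10000168 * x ^ 2) * (1 + |r1|) + 24 * |r1| * x ^ 2 := by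
        rw [t3]; linarith
    _ = _ := by ring

/-- the clock `1 / w'`: `1 / w' = 1 + 5 x + O(x²)` -/
theorem clock_w1 {x : ℝ} (hx : 0 < x) (hx0 : x ≤ 1 / 20) :
    |1 / sharpW.w1 x - (1 + 5 * x)| ≤ 16000 * x ^ 2 := by
  have hx1 : x ∈ Ioo (0 : ℝ) 1 := ⟨hx, by linarith⟩
  have h := w1_first hx1
  have ha := al_pos hx1
  have hU := U_le _ ha
  have hal := inv_al hx1
  have hw : 1 / 2 ≤ sharpW.w1 x := by
    have e1 : sharpW.w1 x = HH (al x) / 2 := rfl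
    rw [e1]
    have ha19 : 19 ≤ al x := by
      unfold al
      have : 20 ≤ 1 / x := by
        rw [le_div_iff₀ hx]; linarith
      linarith
    have h2 : 2 - HH (al x) ≤ 1 := by
      by_contra hcon
      push Not at hcon
      nlinarith
    linarith
  have e : 1 / sharpW.w1 x - (1 + 5 * x) =
      (25 * x ^ 2 - (1 + 5 * x) * (sharpW.w1 x - (1 - 5 * x))) / sharpW.w1 x := by
    have : sharpW.w1 x ≠ 0 := by linarith
    field_simp
    ring
  rw [e, abs_div, abs_of_pos (by linarith : 0 < sharpW.w1 x), div_le_iff₀ (by linarith)]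
  have hsq : 0 ≤ x ^ 2 := by positivity
  have t1 : |(1 + 5 * x) * (sharpW.w1 x - (1 - 5 * x))| ≤ 5 / 4 * (6047 * x ^ 2) := by
    rw [abs_mul, abs_of_pos (by linarith : 0 < 1 + 5 * x)]
    exact mul_le_mul (by linarith) h (abs_nonneg _) (by norm_num)
  have t2 : |25 * x ^ 2 - (1 + 5 * x) * (sharpW.w1 x - (1 - 5 * x))| ≤ 8000 * x ^ 2 := by
    rw [abs_le] at t1 ⊢
    constructor <;> linarith [t1.1, t1.2]
  refine t2.trans ?_
  nlinarith

/-- the clock `1 - b log (1 - x)` -/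
theorem clock_log (b : ℝ) {x : ℝ} (hx : 0 < x) (hx0 : x ≤ 1 / 2) :
    |(1 - b * Real.log (1 - x)) - (1 + b * x)| ≤ 2 * |b| * x ^ 2 := by
  have h1 : 0 < 1 - x := by linarith
  have h2 : Real.log (1 - x) ≤ -x := by
    have := Real.log_le_sub_one_of_pos h1
    linarith
  have h3 : -x - 2 * x ^ 2 ≤ Real.log (1 - x) := by
    have h4 := Real.one_sub_inv_le_log_of_pos h1
    have h5 : -x - 2 * x ^ 2 ≤ 1 - (1 - x)⁻¹ := by
      have h6 : (1 - x)⁻¹ ≤ 1 + x + 2 * x ^ 2 := by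
        rw [inv_le_iff_one_le_mul₀ h1]
        nlinarith [mul_nonneg (sq_nonneg x) (by linarith : 0 ≤ 1 - 2 * x)]
      linarith
    linarith
  have e : (1 - b * Real.log (1 - x)) - (1 + b * x) = b * (-(Real.log (1 - x) + x)) := by ring
  rw [e, abs_mul, abs_neg, abs_of_nonpos (by linarith : Real.log (1 - x) + x ≤ 0)]
  calc |b| * -(Real.log (1 - x) + x) ≤ |b| * (2 * x ^ 2) :=
        mul_le_mul_of_nonneg_left (by linarith) (abs_nonneg _)
    _ = _ := by ring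

/-- the clock `(1 - x) ^ (-q)`, `0 ≤ q ≤ 1` -/
theorem clock_pow {q : ℝ} (hq0 : 0 ≤ q) (hq1 : q ≤ 1) {x : ℝ} (hx : 0 < x) (hx0 : x ≤ 1 / 2) :
    |(1 - x) ^ (-q) - (1 + q * x)| ≤ 2 * x ^ 2 := by
  have h1 : 0 < 1 - x := by linarith
  have hqx : q * x < 1 := by nlinarith
  -- lower bound
  have hlow : 1 + q * x ≤ (1 - x) ^ (-q) := by
    rw [Real.rpow_neg h1.le]
    have h2 : (1 - x) ^ q ≤ 1 - q * x := by
      have h := rpow_one_add_le_one_add_mul_self (s := -x) (p := q) (by linarith) hq0 hq1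
      have e : 1 + -x = 1 - x := by ring
      rw [e] at h
      linarith
    have h3 : 0 < (1 - x) ^ q := Real.rpow_pos_of_pos h1 q
    rw [le_inv_comm₀ (by positivity) h3, inv_eq_one_div, le_div_iff₀ (by positivity)]
    nlinarith [mul_nonneg hq0 hx.le]
  -- upper bound
  have hup : (1 - x) ^ (-q) ≤ 1 + q * x + 2 * x ^ 2 := by
    have e : (1 - x) ^ (-q) = (1 + x / (1 - x)) ^ q := by
      have : 1 + x / (1 - x) = (1 - x)⁻¹ := by
        field_simp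
        ring
      rw [this, Real.inv_rpow h1.le, Real.rpow_neg h1.le]
    rw [e]
    have h2 : 0 ≤ x / (1 - x) := by positivity
    refine (rpow_one_add_le_one_add_mul_self (by linarith) hq0 hq1).trans ?_
    have h3 : x / (1 - x) ≤ x + 2 * x ^ 2 := by
      rw [div_le_iff₀ h1]
      nlinarith [mul_nonneg (sq_nonneg x) (by linarith : 0 ≤ 1 - 2 * x)]
    have h4 : q * (x / (1 - x)) ≤ q * (x + 2 * x ^ 2) := mul_le_mul_of_nonneg_left h3 hq0
    nlinarith [sq_nonneg x]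
  rw [abs_le]
  constructor <;> nlinarith [sq_nonneg x]

/-- `k / w' = 4 (1 - x) + O(x²)` -/
theorem k_div_w1 {x : ℝ} (hx : 0 < x) (hx0 : x ≤ 1 / 20) :
    |sharp.p x ^ 3 * (1 / sharpW.w1 x) - 4 * (1 - x)| ≤ 60100000 * x ^ 2 := by
  have h := kr_of (r := fun x => 1 / sharpW.w1 x) (r1 := 5) (C := 16000) (x0 := 1 / 20)
    (by norm_num) (fun x hx hx0 => clock_w1 hx hx0) x hx hx0
  norm_num at h
  have e : (4 * (1 - x) : ℝ) = 4 * (1 - 1 * x) := by ring
  have h2 : 0 ≤ x ^ 2 := by positivity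
  rw [e, one_mul]
  simp only [one_div]
  linarith

/-- little-o forms, clock `1 / w'` -/
theorem clock_w1_small {δ : ℝ} (hδ : 0 < δ) : ∃ x0 : ℝ, 0 < x0 ∧ x0 ≤ 1 / 20 ∧
    ∀ x, 0 < x → x ≤ x0 → |1 / sharpW.w1 x - (1 + 5 * x)| ≤ δ * x ∧
      |sharp.p x ^ 3 * (1 / sharpW.w1 x) - 4 * (1 - x)| ≤ δ * x := by
  obtain ⟨x1, h1, h1', h1''⟩ := small_of_sq (f := fun x => 1 / sharpW.w1 x - (1 + 5 * x))
    (C := 16000) (x0 := 1 / 20) (by norm_num) (fun x hx hx0 => clock_w1 hx hx0) hδ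
  obtain ⟨x2, h2, h2', h2''⟩ := small_of_sq
    (f := fun x => sharp.p x ^ 3 * (1 / sharpW.w1 x) - 4 * (1 - x))
    (C := 60100000) (x0 := 1 / 20) (by norm_num) (fun x hx hx0 => k_div_w1 hx hx0) hδ
  refine ⟨min x1 x2, lt_min h1 h2, (min_le_left _ _).trans h1', fun x hx hx0 => ⟨?_, ?_⟩⟩
  · exact h1'' x hx (hx0.trans (min_le_left _ _))
  · exact h2'' x hx (hx0.trans (min_le_right _ _))

/-- little-o forms, general clock with `r = 1 + r1 x + O(x²)` -/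
theorem clock_small {r : ℝ → ℝ} {r1 C x0 : ℝ} (h0 : 0 < x0) (h1 : x0 < 1)
    (hr : ∀ x, 0 < x → x ≤ x0 → |r x - (1 + r1 * x)| ≤ C * x ^ 2) {δ : ℝ} (hδ : 0 < δ) :
    ∃ x' : ℝ, 0 < x' ∧ x' ≤ x0 ∧
    ∀ x, 0 < x → x ≤ x' → |r x - (1 + r1 * x)| ≤ δ * x ∧
      |sharp.p x ^ 3 * r x - 4 * (1 - (6 - r1) * x)| ≤ δ * x := by
  obtain ⟨x1, h1, h1', h1''⟩ := small_of_sq (f := fun x => r x - (1 + r1 * x))
    (C := C) (x0 := x0) h0 hr hδ
  obtain ⟨x2, h2, h2', h2''⟩ := small_of_sq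
    (f := fun x => sharp.p x ^ 3 * r x - 4 * (1 - (6 - r1) * x)) (x0 := x0) h0
    (kr_of (by assumption) hr) hδ
  refine ⟨min x1 x2, lt_min h1 h2, (min_le_left _ _).trans h1', fun x hx hx0 => ⟨?_, ?_⟩⟩
  · exact h1'' x hx (hx0.trans (min_le_left _ _))
  · exact h2'' x hx (hx0.trans (min_le_right _ _))

end Vale.Agent.P254.H320
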